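import Vale.Agent.H27.PTSLemmas

namespace Vale.Agent.Results.P340.FiniteSpec

open Vale.Agent.H27.PTS

/-- If every weakly normalizing PTS whose set of sorts is `{0, ..., n-1}` for some `n` is
strongly normalizing, then every weakly normalizing PTS (over any set of sorts, with any
axioms and rules) is strongly normalizing. -/
theorem result
    (hfin : ∀ (n : ℕ) (P : Spec (Fin n)), WN P → SN P) :
    ∀ (S : Type*) (P : Spec S), WN P → SN P := by
  intro S P hWN M hM hinf
  -- a finite set of sorts over which `M` stays legal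
  have key : ∃ F : Set S, F.Finite ∧ F.Nonempty ∧ ∀ (T : Type) (f : T → S) (g : S → T),
      (∀ s ∈ F, f (g s) = s) →
      Legal (⟨fun s t => P.ax (f s) (f t), fun s t u => P.rule (f s) (f t) (f u)⟩ : Spec T)
        (rn g M) := by
    have hne : ∀ {Γ : List (Expr S)} {M B : Expr S}, Typing P Γ M B → Nonempty S := by
      intro Γ M B h
      induction h with
      | axm h => exact ⟨‹S›⟩
      | var _ ih => exact ih
      | weak _ _ ih _ => exact ih
      | pi _ _ _ ih _ => exact ih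
      | lam _ _ ih _ => exact ih
      | app _ _ ih _ => exact ih
      | conv _ _ _ ih _ => exact ih
    rcases hM with ⟨Γ, B, h⟩ | ⟨Γ, N, h⟩
    · obtain ⟨s₀⟩ := hne h
      obtain ⟨F, hF, H⟩ := typing_finite P h
      refine ⟨F ∪ {s₀}, hF.union (Set.toFinite _), ⟨s₀, by simp⟩, fun T f g hfg => ?_⟩
      exact Or.inl ⟨_, _, H T f g fun s hs => hfg s (Or.inl hs)⟩
    · obtain ⟨s₀⟩ := hne h
      obtain ⟨F, hF, H⟩ := typing_finite P h
      refine ⟨F ∪ {s₀}, hF.union (Set.toFinite _), ⟨s₀, by simp⟩, fun T f g hfg => ?_⟩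
      exact Or.inr ⟨_, _, H T f g fun s hs => hfg s (Or.inl hs)⟩
  obtain ⟨F, hF, ⟨s₀, hs₀⟩, H⟩ := key
  have _inst := hF.fintype
  let e : F ≃ Fin (Fintype.card F) := Fintype.equivFin F
  let f : Fin (Fintype.card F) → S := fun i => (e.symm i : S)
  classical
  let g : S → Fin (Fintype.card F) := fun s => if h : s ∈ F then e ⟨s, h⟩ else e ⟨s₀, hs₀⟩
  have hfg : ∀ s ∈ F, f (g s) = s := by
    intro s hs
    simp only [f, g, dif_pos hs, Equiv.symm_apply_apply]
  have hlegal := H _ f g hfg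
  set Q : Spec (Fin (Fintype.card F)) :=
    ⟨fun s t => P.ax (f s) (f t), fun s t u => P.rule (f s) (f t) (f u)⟩ with hQ
  have hQWN : WN Q := by
    intro X hX
    have hX' : Legal P (rn f X) := by
      rcases hX with ⟨Γ, B, h⟩ | ⟨Γ, N, h⟩
      · exact Or.inl ⟨_, _, typing_rn f Q P (fun _ _ h => h) (fun _ _ _ h => h) h⟩
      · exact Or.inr ⟨_, _, typing_rn f Q P (fun _ _ h => h) (fun _ _ _ h => h) h⟩
    obtain ⟨Y, hY, hnf⟩ := hWN _ hX'
    obtain ⟨N, hN, hNY⟩ := reds_unrn f hY X rfl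
    refine ⟨N, hN, fun N' hN' => ?_⟩
    exact hnf _ (hNY ▸ step_rn f hN')
  refine hfin _ Q hQWN (rn g M) hlegal ?_
  obtain ⟨u, hu0, hu⟩ := hinf
  exact ⟨fun n => rn g (u n), by simp [hu0], fun n => step_rn g (hu n)⟩

end Vale.Agent.Results.P340.FiniteSpec
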